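import Mathlib.LinearAlgebra.Matrix.Determinant.Basic
import Mathlib.Analysis.Complex.Basic
import Mathlib.Algebra.BigOperators.Fin

/-!
# The Cauchy–Binet formula (not normalised)
-/

open Matrix Finset Equiv

noncomputable section

namespace Vale.Agent.P299.H223

variable {n : ℕ} {ι R : Type*} [Fintype ι] [DecidableEq ι] [CommRing R]

lemma det_mul_rect (A : Matrix (Fin n) ι R) (B : Matrix ι (Fin n) R) :
    (A * B).det = ∑ g : Fin n → ι, (A.submatrix id g).det * ∏ i, B (g i) i := by
  rw [det_apply']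
  have h1 : ∀ τ : Perm (Fin n), ∏ i, (A * B) (τ i) i =
      ∑ g : Fin n → ι, ∏ i, (A (τ i) (g i) * B (g i) i) := by
    intro τ
    simp only [Matrix.mul_apply]
    rw [Finset.prod_univ_sum]
    rfl
  simp only [h1, Finset.mul_sum]
  rw [Finset.sum_comm]
  refine Finset.sum_congr rfl fun g _ => ?_
  rw [det_apply', Finset.sum_mul]
  refine Finset.sum_congr rfl fun τ _ => ?_
  rw [Finset.prod_mul_distrib]
  simp only [submatrix_apply, id]
  ring

/-- **Cauchy–Binet** -/
theorem cauchy_binet (A : Matrix (Fin n) ι R) (B : Matrix ι (Fin n) R) :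
    (n.factorial : R) * (A * B).det =
      ∑ f : Fin n → ι, (A.submatrix id f).det * (B.submatrix f id).det := by
  have h1 : ∀ f : Fin n → ι, (A.submatrix id f).det * (B.submatrix f id).det =
      ∑ σ : Perm (Fin n), (Perm.sign σ : R) * (A.submatrix id f).det * ∏ i, B (f (σ i)) i := by
    intro f
    rw [det_apply' (B.submatrix f id), Finset.mul_sum]
    refine Finset.sum_congr rfl fun σ _ => ?_
    simp only [submatrix_apply, id]
    ring
  simp only [h1]
  rw [Finset.sum_comm]
  have h2 : ∀ σ : Perm (Fin n), ∑ f : Fin n → ι,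
      (Perm.sign σ : R) * (A.submatrix id f).det * ∏ i, B (f (σ i)) i = (A * B).det := by
    intro σ
    rw [det_mul_rect]
    refine Fintype.sum_equiv (Equiv.arrowCongr σ.symm (Equiv.refl ι)) _ _ fun f => ?_
    have h3 : (Equiv.arrowCongr σ.symm (Equiv.refl ι)) f = f ∘ σ := by
      funext i; simp
    rw [h3]
    have h4 : (A.submatrix id (f ∘ σ)).det = Perm.sign σ * (A.submatrix id f).det := by
      rw [← det_permute' σ (A.submatrix id f)]
      rfl
    rw [h4]
    rfl
  rw [Finset.sum_congr rfl fun σ _ => h2 σ]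
  simp [Fintype.card_perm]

/-- the determinant of a Gram type matrix `Σ_m r_m r_m^*` -/
theorem det_gram (r : ι → Fin n → ℂ) :
    (n.factorial : ℂ) * (Matrix.of fun j k => ∑ m, r m j * (starRingEnd ℂ) (r m k)).det =
      ((∑ f : Fin n → ι, ‖(Matrix.of fun j a => r (f a) j).det‖ ^ 2 : ℝ) : ℂ) := by
  have h1 : (Matrix.of fun j k => ∑ m, r m j * (starRingEnd ℂ) (r m k)) =
      (Matrix.of fun (j : Fin n) (m : ι) => r m j) *
        (Matrix.of fun (m : ι) (k : Fin n) => (starRingEnd ℂ) (r m k)) := by
    ext j k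
    simp [Matrix.mul_apply]
  rw [h1, cauchy_binet]
  push_cast
  refine Finset.sum_congr rfl fun f _ => ?_
  have h2 : ((Matrix.of fun (m : ι) (k : Fin n) => (starRingEnd ℂ) (r m k)).submatrix f id).det =
      (starRingEnd ℂ) ((Matrix.of fun (j : Fin n) (a : Fin n) => r (f a) j).det) := by
    rw [← det_transpose, RingHom.map_det]
    congr 1
  have h3 : ((Matrix.of fun (j : Fin n) (m : ι) => r m j).submatrix id f).det =
      (Matrix.of fun (j : Fin n) (a : Fin n) => r (f a) j).det := rfl
  rw [h2, h3, Complex.mul_conj, Complex.normSq_eq_norm_sq]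
  push_cast
  rfl

end Vale.Agent.P299.H223
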