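import Vale.Agent.P299.H531.Main

/-!
# P299 : the sup metric on the fibres from the algebraic comparison (5.1)
-/

set_option linter.all false

open MeasureTheory Filter Topology
open scoped ENNReal NNReal ComplexConjugate

noncomputable section

namespace Vale.Agent.P299.H223

open Vale.Agent.P300.L2 Vale.Agent.P299.H531

variable {n N k N' : ℕ} {S : Sheets n N} {T : Sheets k N'} {ι : Fin k ↪ Fin n}
  {Φ : (Fin n → ℂ) × ℕ → (Fin k → ℂ) × ℕ} {φ : (Fin n → ℂ) × ℕ → ℝ}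
  {s : (Fin n → ℂ) × ℕ → ℂ}

/-- the output of the algebraic comparison, on the points of the covers -/
structure Cmp (S : Sheets n N) (T : Sheets k N') (Φ : (Fin n → ℂ) × ℕ → (Fin k → ℂ) × ℕ)
    (φ : (Fin n → ℂ) × ℕ → ℝ) (s : (Fin n → ℂ) × ℕ → ℂ) (b e : ℕ)
    (Ha Hb : (Fin k → ℂ) × ℕ → ℝ) : Prop where
  e_pos : 1 ≤ e
  ha : ∀ y ∈ T.M, 0 < Ha y
  /-- the quotient `nsq w / nsq v` -/
  ex : ∃ (r : (Fin n → ℂ) × ℕ → ℝ) (C C' : ℝ), 0 < C ∧ 0 < C' ∧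
    (∀ q ∈ S.M, r q ≤ C * (‖s q‖ ^ 2 * Real.exp (-φ q) ^ b)) ∧
    (∀ q ∈ S.M, ‖s q‖ ^ 2 * Real.exp (-φ q) ^ b ≤ C * r q) ∧
    ∀ y ∈ T.M, ∃ ρ : ℝ, 0 < ρ ∧ IsLUB {x | ∃ q ∈ S.M, Φ q = y ∧ x = r q} ρ ∧
      ρ ^ e * Ha y ≤ C' * Hb y ∧ Hb y ≤ C' * (ρ ^ e * Ha y)

variable {b e : ℕ} {Ha Hb : (Fin k → ℂ) × ℕ → ℝ}

theorem Cmp.hb (h : Cmp S T Φ φ s b e Ha Hb) : ∀ y ∈ T.M, 0 < Hb y := by
  obtain ⟨r, C, C', hC, hC', -, -, h3⟩ := h.ex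
  intro y hy
  obtain ⟨ρ, hρ, -, h4, -⟩ := h3 y hy
  have h5 : 0 < ρ ^ e * Ha y := mul_pos (pow_pos hρ e) (h.ha y hy)
  have h6 : 0 < C' * Hb y := lt_of_lt_of_le h5 h4
  exact (pos_iff_pos_of_mul_pos h6).1 hC'

/-- **FibSup and the comparison of 531** -/
theorem Cmp.exists_fibSup (h : Cmp S T Φ φ s b e Ha Hb)
    (hsurj : ∀ y ∈ T.M, ∃ q ∈ S.M, Φ q = y) :
    ∃ (ρ : (Fin k → ℂ) × ℕ → ℝ) (C₁ : ℝ), FibSup S T Φ φ s b ρ ∧
      ∀ y ∈ T.M, |(e : ℝ) * Real.log (ρ y) - (Real.log (Hb y) - Real.log (Ha y))| ≤ C₁ := by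
  classical
  obtain ⟨r, C, C', hC, hC', h1, h2, h3⟩ := h.ex
  set f : (Fin n → ℂ) × ℕ → ℝ := fun q => ‖s q‖ ^ 2 * Real.exp (-φ q) ^ b with hf
  set A : (Fin k → ℂ) × ℕ → Set ℝ := fun y => {x | ∃ q ∈ S.M, Φ q = y ∧ x = f q} with hA
  have hne : ∀ y ∈ T.M, (A y).Nonempty := by
    intro y hy
    obtain ⟨q, hq, hqy⟩ := hsurj y hy
    exact ⟨_, q, hq, hqy, rfl⟩
  have hbd : ∀ y ∈ T.M, ∀ ρ : ℝ, IsLUB {x | ∃ q ∈ S.M, Φ q = y ∧ x = r q} ρ →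
      C * ρ ∈ upperBounds (A y) := by
    intro y hy ρ hρ
    rintro x ⟨q, hq, hqy, rfl⟩
    exact (h2 q hq).trans (mul_le_mul_of_nonneg_left (hρ.1 ⟨q, hq, hqy, rfl⟩) hC.le)
  refine ⟨fun y => sSup (A y), (e : ℝ) * |Real.log C| + |Real.log C'|, fun y hy => ?_,
    fun y hy => ?_⟩
  · obtain ⟨ρ, hρ, hlub, -⟩ := h3 y hy
    exact isLUB_csSup (hne y hy) ⟨_, hbd y hy ρ hlub⟩
  · obtain ⟨ρ, hρ, hlub, h4, h5⟩ := h3 y hy
    have hlub' := isLUB_csSup (hne y hy) ⟨_, hbd y hy ρ hlub⟩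
    set σ := sSup (A y) with hσ
    have h6 : σ ≤ C * ρ := hlub'.2 (hbd y hy ρ hlub)
    have h7 : ρ ≤ C * σ := by
      refine hlub.2 ?_
      rintro x ⟨q, hq, hqy, rfl⟩
      exact (h1 q hq).trans (mul_le_mul_of_nonneg_left (hlub'.1 ⟨q, hq, hqy, rfl⟩) hC.le)
    have hσ0 : 0 < σ := by
      have : 0 < C * σ := lt_of_lt_of_le hρ h7
      exact (pos_iff_pos_of_mul_pos this).1 hC
    have ha := h.ha y hy
    have hb := h.hb y hy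
    have h8 : Real.log σ ≤ Real.log C + Real.log ρ := by
      rw [← Real.log_mul hC.ne' hρ.ne']
      exact Real.log_le_log hσ0 h6
    have h9 : Real.log ρ ≤ Real.log C + Real.log σ := by
      rw [← Real.log_mul hC.ne' hσ0.ne']
      exact Real.log_le_log hρ h7
    have h10 : (e : ℝ) * Real.log ρ + Real.log (Ha y) ≤ Real.log C' + Real.log (Hb y) := by
      rw [← Real.log_pow, ← Real.log_mul (pow_pos hρ e).ne' ha.ne', ← Real.log_mul hC'.ne' hb.ne']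
      exact Real.log_le_log (mul_pos (pow_pos hρ e) ha) h4
    have h11 : Real.log (Hb y) ≤ Real.log C' + ((e : ℝ) * Real.log ρ + Real.log (Ha y)) := by
      rw [← Real.log_pow, ← Real.log_mul (pow_pos hρ e).ne' ha.ne',
        ← Real.log_mul hC'.ne' (mul_pos (pow_pos hρ e) ha).ne']
      exact Real.log_le_log hb h5
    have he : (0 : ℝ) ≤ e := Nat.cast_nonneg e
    have h12 := mul_le_mul_of_nonneg_left h8 he
    have h13 := mul_le_mul_of_nonneg_left h9 he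
    have h14 := mul_le_mul_of_nonneg_left (le_abs_self (Real.log C)) he
    have h15 := le_abs_self (Real.log C')
    rw [abs_le]
    constructor <;> linarith

/-- **the inequality (5.1) on `S`** -/
theorem Cmp.s_le (h : Cmp S T Φ φ s b e Ha Hb) (hmaps : ∀ q ∈ S.M, Φ q ∈ T.M) :
    ∃ C : ℝ, ∀ q ∈ S.M, ‖s q‖ ^ (2 * e) * Real.exp (-(e * b * φ q)) * Ha (Φ q) ≤
      C * Hb (Φ q) := by
  obtain ⟨r, C, C', hC, hC', h1, h2, h3⟩ := h.ex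
  refine ⟨C ^ e * C', fun q hq => ?_⟩
  obtain ⟨ρ, hρ, hlub, h4, -⟩ := h3 _ (hmaps q hq)
  have ha := h.ha _ (hmaps q hq)
  have h5 : ‖s q‖ ^ 2 * Real.exp (-φ q) ^ b ≤ C * ρ :=
    (h2 q hq).trans (mul_le_mul_of_nonneg_left (hlub.1 ⟨q, hq, rfl, rfl⟩) hC.le)
  have h6 : (‖s q‖ ^ 2 * Real.exp (-φ q) ^ b) ^ e ≤ (C * ρ) ^ e :=
    pow_le_pow_left₀ (by positivity) h5 e
  have h7 : ‖s q‖ ^ (2 * e) * Real.exp (-(e * b * φ q)) =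
      (‖s q‖ ^ 2 * Real.exp (-φ q) ^ b) ^ e := by
    rw [mul_pow, ← pow_mul, ← pow_mul, ← Real.exp_nat_mul]
    congr 2
    push_cast
    ring
  rw [h7]
  calc (‖s q‖ ^ 2 * Real.exp (-φ q) ^ b) ^ e * Ha (Φ q) ≤ (C * ρ) ^ e * Ha (Φ q) :=
        mul_le_mul_of_nonneg_right h6 ha.le
    _ = C ^ e * (ρ ^ e * Ha (Φ q)) := by rw [mul_pow]; ring
    _ ≤ C ^ e * (C' * Hb (Φ q)) := mul_le_mul_of_nonneg_left h4 (by positivity)
    _ = _ := by ring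

end Vale.Agent.P299.H223
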